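import Vale.Agent.P180.R2.H799.BN0

/-!
P180: groups with a split parabolic system (definition).
-/

namespace Vale.Agent.P180

open Vale.Agent.P180.R2.H799

/-- `(L, A)` has a split parabolic system: `L` is the image of a finite group `S` with a parabolic
system `𝒮` (a family of `p'`-subgroups `V`, the unipotent radicals, closed under conjugation and
under `(V, W) ↦ V (N(V) ∩ W)`, with `N(V (N(V) ∩ W)) = V (N(V) ∩ N(W))`), whose normalisers are
`N(V) = V ⋊ C(Z)` with an abelian `p`-subgroup `Z`, the preimage of the centre of `L` is the centre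
of `S`, of order prime to `p` and to the orders of the `V`, and each `p`-subgroup `Q` of `S` with
image in `A` is abelian and satisfies `N(V) = V ⋊ C(Q)` for some `V` in the system.

(Example, not used: `S` a simply connected group of Lie type over a field of order `q`, `𝒮` the
unipotent radicals of its parabolic subgroups, `p` a divisor of `q - 1` which does not divide the
order of the Weyl group, `A` any `p`-subgroup.) -/
def ParPair (p : ℕ) (L : Type) [Group L] (A : Subgroup L) : Prop :=
  ∃ (S : Type) (_ : Group S) (_ : Finite S) (𝒮 : ParSys p S) (π : S →* L),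
    Function.Surjective π ∧ 𝒮.HasLevi ∧ ¬ p ∣ Nat.card (Subgroup.center S) ∧
    (∀ V ∈ 𝒮.car, (Nat.card V).Coprime (Nat.card (Subgroup.center S))) ∧
    (∀ x, π x ∈ Subgroup.center L → x ∈ Subgroup.center S) ∧
    ∀ Q : Subgroup S, IsPGroup p Q → Q.map π ≤ A →
      (∀ x ∈ Q, ∀ y ∈ Q, x * y = y * x) ∧ ∃ V ∈ 𝒮.car, IsLeviPair V Q

end Vale.Agent.P180
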