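import Vale.Agent.P180.R2.H259.Par.Def
import Vale.Agent.P180.R2.H799.BNL6
import Vale.Agent.P180.R2.H799.BNQ
import Vale.Agent.P180.R2.H47.QsT

set_option linter.all false

/-!
P180: the corner property of the groups with a split parabolic system.
-/

namespace Vale.Agent.P180.R2.H259.Par

open Vale.Agent.P180 Vale.Agent.P180.R2.H799 Vale.Agent.P180.R2.H799.BN
open Vale.Agent.P180.R2.H365 Vale.Agent.P180.R2.H954 Vale.Agent.P180.R2.H47

open scoped Nat

universe u

/-- The class is stable under central quotients of perfect groups and under subgroups of `A`. -/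
theorem ck_par {p : ℕ} [Fact p.Prime] : CK p (ParPair p) where
  map := by
    rintro L L' _ _ _ _ f hf hker hL A hA ⟨S, _, _, 𝒮, π, hπ, hLv, hpz, hcop, hcen, hQ⟩
    -- the preimage of the centre
    have hcf : ∀ x : L, f x ∈ Subgroup.center L' → x ∈ Subgroup.center L := by
      intro x hx
      have hk : ∀ l : L, f (x * l * x⁻¹ * l⁻¹) = 1 := by
        intro l
        rw [map_mul, map_mul, map_mul, map_inv, map_inv,
          ← Subgroup.mem_center_iff.mp hx (f l), mul_inv_cancel_right, mul_inv_cancel]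
      let c : L →* L := MonoidHom.mk' (fun l => x * l * x⁻¹ * l⁻¹) (by
        intro l l'
        have h1 := hker _ (hk l') l
        calc x * (l * l') * x⁻¹ * (l * l')⁻¹
            = x * l * x⁻¹ * ((x * l' * x⁻¹ * l'⁻¹) * l⁻¹) := by group
          _ = x * l * x⁻¹ * (l⁻¹ * (x * l' * x⁻¹ * l'⁻¹)) := by
              rw [hker _ (hk l') l⁻¹]
          _ = _ := by group)
      have hc : ∀ l, c l = x * l * x⁻¹ * l⁻¹ := fun l => rfl
      have h2 : commutator L ≤ c.ker := by
        rw [commutator_def, Subgroup.commutator_le]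
        intro a _ b _
        rw [MonoidHom.mem_ker, commutatorElement_def, map_mul, map_mul, map_mul, map_inv, map_inv]
        have h3 : c a * c b = c b * c a := hker _ (hk a) _
        rw [h3, mul_inv_cancel_right, mul_inv_cancel]
      rw [Subgroup.mem_center_iff]
      intro l
      have h3 : c l = 1 := MonoidHom.mem_ker.mp (h2 (by rw [hL]; exact Subgroup.mem_top l))
      rw [hc] at h3
      calc l * x = (x * l * x⁻¹ * l⁻¹)⁻¹ * (x * l) := by group
        _ = x * l := by rw [h3, inv_one, one_mul]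
    have hkc : ∀ x : L, f x = 1 → x ∈ Subgroup.center L := fun x hx =>
      hcf x (by rw [hx]; exact Subgroup.one_mem _)
    refine ⟨S, inferInstance, inferInstance, 𝒮, f.comp π, hf.comp hπ, hLv, hpz, hcop,
      fun x hx => hcen x (hcf _ hx), ?_⟩
    intro Q hQp hQA
    refine hQ Q hQp ?_
    -- `π Q` is a `p`-group in `A × ker f`
    rintro _ ⟨x, hx, rfl⟩
    obtain ⟨a, ha, hax⟩ := hQA ⟨x, hx, rfl⟩
    have hax : f a = f (π x) := hax
    have hz : f (a⁻¹ * π x) = 1 := by rw [map_mul, map_inv, hax, inv_mul_cancel]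
    obtain ⟨y, hy⟩ := hπ (a⁻¹ * π x)
    have hyc : y ∈ Subgroup.center S := hcen y (by rw [hy]; exact hkc _ hz)
    obtain ⟨i, hi⟩ := hQp ⟨x, hx⟩
    have hi' : x ^ p ^ i = 1 := congrArg Subtype.val hi
    obtain ⟨j, hj⟩ := hA ⟨a, ha⟩
    have hj' : a ^ p ^ j = 1 := congrArg Subtype.val hj
    -- the element `z = a⁻¹ π x` is a central `p`-element
    have h1 : (a⁻¹ * π x) ^ p ^ (i + j) = 1 := by
      have hc : Commute a⁻¹ (π x) := by
        have h2 := hker _ hz a
        have h3 : Commute a (a⁻¹ * π x) := h2.symm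
        have h4 : Commute a (π x) := by
          have h5 : π x = a * (a⁻¹ * π x) := by group
          rw [h5]
          exact (Commute.refl a).mul_right h3
        exact h4.inv_left
      rw [hc.mul_pow, pow_add, inv_pow, mul_comm (p ^ i), pow_mul a, hj', one_pow, inv_one, one_mul,
        mul_comm, pow_mul, ← map_pow, hi', map_one, one_pow]
    have h2 : y ^ p ^ (i + j) ∈ π.ker := by
      rw [MonoidHom.mem_ker, map_pow, hy, h1]
    -- the order of `a⁻¹ π x` is prime to `p`
    have h3 : (a⁻¹ * π x) ^ Nat.card (Subgroup.center S) = 1 := by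
      rw [← hy, ← map_pow]
      have h4 : y ^ Nat.card (Subgroup.center S) = 1 :=
        congrArg Subtype.val (pow_card_eq_one' (x := (⟨y, hyc⟩ : Subgroup.center S)))
      rw [h4, map_one]
    have h4 : a⁻¹ * π x = 1 := by
      have h5 := Nat.dvd_gcd (orderOf_dvd_of_pow_eq_one h1) (orderOf_dvd_of_pow_eq_one h3)
      have h6 : Nat.Coprime (p ^ (i + j)) (Nat.card (Subgroup.center S)) :=
        Nat.Coprime.pow_left _ ((Nat.Prime.coprime_iff_not_dvd Fact.out).mpr hpz)
      rw [h6.gcd_eq_one, Nat.dvd_one, orderOf_eq_one_iff] at h5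
      exact h5
    have h5 : π x = a := (inv_mul_eq_one.mp h4).symm
    rw [h5]
    exact ha
  sub := by
    rintro L _ _ A A' hA ⟨S, _, _, 𝒮, π, hπ, hLv, hpz, hcop, hcen, hQ⟩
    exact ⟨S, inferInstance, inferInstance, 𝒮, π, hπ, hLv, hpz, hcop, hcen,
      fun Q hQp hQA => hQ Q hQp (hQA.trans hA)⟩

/-- **The corner bound** for the groups with a split parabolic system. -/
theorem cornerBd_par {k : Type u} [Field k] [IsAlgClosed k] {p : ℕ} [Fact p.Prime] [CharP k p]
    {L : Type} [Group L] [Finite L] {A : Subgroup L} (h : ParPair p L A) {D : Subgroup L}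
    (hD : IsPGroup p D) (hDA : D ≤ A) :
    CornerBd k D ((Nat.card D)! * (Nat.card D * Nat.card D)) := by
  obtain ⟨S, _, _, 𝒮, π, hπ, hLv, hpz, hcop, hcen, hQ⟩ := h
  have hk : π.ker ≤ Subgroup.center S := by
    intro x hx
    apply hcen
    rw [MonoidHom.mem_ker.mp hx]
    exact Subgroup.one_mem _
  have hkd : Nat.card π.ker ∣ Nat.card (Subgroup.center S) := Subgroup.card_dvd_of_le hk
  have hkp : ¬ p ∣ Nat.card π.ker := fun h => hpz (h.trans hkd)
  have hc : ∀ V ∈ 𝒮.car, (Nat.card V).Coprime (Nat.card π.ker) := fun V hV =>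
    Nat.Coprime.coprime_dvd_right hkd (hcop V hV)
  obtain ⟨Q, hQp, rfl⟩ := H799.BN.exists_lift (p := p) π hπ hD
  obtain ⟨hab, V, hV, hpair⟩ := hQ Q hQp hDA
  refine corner_bd (imageSys π 𝒮 hπ hk hc) (hasLevi_image π hπ hk hkp hc hLv)
    ⟨V, hV, rfl⟩ (pair_image π hπ hk hkp hQp (hc V hV) hpair) hD ?_
  rintro _ ⟨x, hx, rfl⟩ _ ⟨y, hy, rfl⟩
  rw [← map_mul, ← map_mul, hab x hx y hy]

/-- **The corner property** for the groups with a split parabolic system. -/
theorem corP_parq {k : Type u} [Field k] [IsAlgClosed k] {p n : ℕ} [Fact p.Prime] [CharP k p]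
    {G : Type} [Group G] [Finite G] {D L : Subgroup G} (hD : IsPGroup p D)
    (hDn : Nat.card D ≤ n) (h : ParPair p L (D.subgroupOf L))
    (hin : D ⊓ Subgroup.normalizer (L : Set G) ≤ L ⊔ Subgroup.centralizer (L : Set G))
    (b : MonoidAlgebra k G) : CorP p (bnB n) b D L := by
  refine corP_of_bd hD hin (fun Q hQ => ?_) b
  have hQn := card_subgroupOf_le hDn hQ
  have hQp : IsPGroup p Q := (hD.comap_of_injective L.subtype L.subtype_injective).to_le hQ
  have h1 : CornerBd k Q ((Nat.card Q)! * (Nat.card Q * Nat.card Q)) := cornerBd_par h hQp hQ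
  intro e a i he ha hea hi hei hbr
  exact (h1 e a i he ha hea hi hei hbr).trans
    (Nat.mul_le_mul (Nat.factorial_le hQn) (Nat.mul_le_mul hQn hQn))

end Vale.Agent.P180.R2.H259.Par
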